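import Mathlib
import Vale.Agent.Lib.P133.Strong

namespace Vale.Agent.Results.P133.A_chain

open Vale.Agent.Lib.P133

/-- Kirchberg-Rørdam comparison on C*-algebras whose closed two-sided ideals form a chain: a weakly
purely infinite such algebra is strongly purely infinite. Since strongly purely infinite implies
purely infinite implies weakly purely infinite, the three notions coincide on this class. -/
theorem result {A : Type*} [NonUnitalCStarAlgebra A] [PartialOrder A] [StarOrderedRing A]
    (hch : IdealsLinearlyOrdered A) (hw : WeaklyPurelyInfinite A) : StronglyPurelyInfinite A :=
  stronglyPurelyInfinite_of_chain_of_weakly hch hw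

end Vale.Agent.Results.P133.A_chain
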