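import Vale.Agent.Lib.P133.Glimm

namespace Vale.Agent.Results.P133.A_main

open Vale.Agent.Lib.P133

/-- If the closed two-sided ideals of a C*-algebra are linearly ordered by inclusion, then weak
pure infiniteness implies pure infiniteness. -/
theorem result {A : Type*} [NonUnitalCStarAlgebra A] [PartialOrder A] [StarOrderedRing A]
    (hch : IdealsLinearlyOrdered A) (hw : WeaklyPurelyInfinite A) : PurelyInfinite A :=
  purelyInfinite_of_chain hch hw

end Vale.Agent.Results.P133.A_main
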